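import Vale.Agent.P242.Main

open Vale.Agent.P242 Filter Topology

theorem Vale.Agent.Results.P242.A_conf.result (n : ℕ) (hn : 3 ≤ n) : ∃ ε : ℝ, 0 < ε ∧ ∀ Λ : ℝ,
    (∃ L ρ : ℝ, 1 ≤ L ∧ 0 < ρ ∧ ∀ w : E n → ℝ, Adm ε Λ w → Chart w L ρ) ∧
    ∀ (X : Type) [MetricSpace X] [ProperSpace X] (p : X) (s : ℝ) (w : ℕ → E n → ℝ)
      (f : ℕ → E n → X) (δ : ℕ → ℝ), 0 < s → (∀ k, Adm ε Λ (w k)) → Tendsto δ atTop (𝓝 0) →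
      (∀ k, Approx (w k) (f k) p s (δ k)) → HasChart n p :=
  Vale.Agent.P242.main n hn
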