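import Vale.Agent.P242G.Main

open Vale.Agent.P242 Filter Topology

theorem Vale.Agent.Results.P242.A_glob.result (n : ℕ) (hn : 3 ≤ n) (X : Type) [MetricSpace X]
    [ProperSpace X] (p : X) (s : ℝ) (w : ℕ → E n → ℝ) (o : ℕ → E n) (f : ℕ → E n → X) (δ : ℕ → ℝ)
    (hs : 0 < s) (hw : ∀ k, GRic (w k))
    (hb : ∀ k, Bornology.IsBounded {x | gdist (w k) (o k) x < ENNReal.ofReal s})
    (hδ : Tendsto δ atTop (𝓝 0)) (hA : ∀ k, GApprox (w k) (o k) (f k) p s (δ k))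
    (hR : Regular n p) : HasChart n p :=
  Vale.Agent.P242.main3 n hn X p s w o f δ hs hw hb hδ hA hR
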