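import Vale.Agent.P242R.Main

open Vale.Agent.P242 Filter Topology Set

theorem Vale.Agent.Results.P242.A_reg.result (n : ℕ) (hn : 3 ≤ n) :
    (∃ η c L ρ : ℝ, 0 < η ∧ 0 < c ∧ 1 ≤ L ∧ 0 < ρ ∧
      ∀ (w : E n → ℝ) (s : ℝ), RicNN w → 0 < s → Inside w s →
        (∀ t ∈ Icc (c * s) s, ∃ F : E n → E n, Approx w F 0 t (η * t)) → Chart w L (ρ * s)) ∧
    ∀ (X : Type) [MetricSpace X] [ProperSpace X] (p : X) (s : ℝ) (w : ℕ → E n → ℝ)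
      (f : ℕ → E n → X) (δ : ℕ → ℝ), 0 < s → (∀ k, RicNN (w k)) → (∀ k, Inside (w k) s) →
      Tendsto δ atTop (𝓝 0) → (∀ k, Approx (w k) (f k) p s (δ k)) → Regular n p →
      HasChart n p :=
  Vale.Agent.P242.main2 n hn
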